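import Vale.Agent.P032.S5.H80.Ray

/-!
# P032: two exact arcs with complementary pairs are a `DPt`

Conversion between the point form of a `D`-point used at the top and the structure `DPt`.
-/

open Set Filter Topology Metric

noncomputable section

namespace Vale.Agent.P032.Six

variable {k : ℕ} {T : ℂ → Set (Fin k)}

/-- exact arcs with disjoint pairs whose union is the palette of the centre -/
theorem exists_DPt {z p q : ℂ} (hp : dist p z = 1) (hq : dist q z = 1)
    (hpJ : ∀ᶠ x in 𝓝[sphere z 1] p, T x = T p) (hqJ : ∀ᶠ x in 𝓝[sphere z 1] q, T x = T q)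
    (hp2 : (T p).ncard = 2) (hq2 : (T q).ncard = 2) (hdis : Disjoint (T p) (T q))
    (hun : T p ∪ T q = T z) : ∃ a b c d, DPt T z a b c d := by
  obtain ⟨a, b, hab, hP⟩ := Set.ncard_eq_two.1 hp2
  obtain ⟨c, d, hcd, hQ⟩ := Set.ncard_eq_two.1 hq2
  rw [hP, hQ] at hdis
  rw [Set.disjoint_left] at hdis
  have h1 : a ∉ ({c, d} : Set (Fin k)) := hdis (by simp)
  have h2 : b ∉ ({c, d} : Set (Fin k)) := hdis (by simp)
  simp only [mem_insert_iff, mem_singleton_iff, not_or] at h1 h2
  refine ⟨a, b, c, d, ?_, h1.1, h1.2, h2.1, h2.2, hab, hcd, ⟨p, hp, by rw [← hP]; exact hpJ⟩,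
    ⟨q, hq, by rw [← hQ]; exact hqJ⟩⟩
  rw [← hun, hP, hQ]
  ext i
  simp only [mem_union, mem_insert_iff, mem_singleton_iff]
  tauto

end Vale.Agent.P032.Six
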