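import Vale.Agent.P032.S5.H585.Pinch

/-!
# P032: assembly of the exclusions at a four-coloured point

Frame `Irr U T`.  A point `z` with `|T z| = 4` is harmless (`Harm T z A`) as soon as

* some point of the unit circle about `z` has its palette in `T z` (`M z ≠ ∅`),
* no two pairs of `M z` have exactly one common colour (matching lemma with `min`),
* no two pairs of `M z` are disjoint (there is no `D`-point).
-/

open Set Filter Topology Metric

noncomputable section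

namespace Vale.Agent.P032.Six

variable {k : ℕ} {U : Fin k → Set ℂ} {T : ℂ → Set (Fin k)}

/-- the arc palettes of `S(z)` inside `T z` (`M z`, points form) -/
def MM (T : ℂ → Set (Fin k)) (z : ℂ) : Set (Set (Fin k)) :=
  {P | P ⊆ T z ∧ P.ncard = 2 ∧ ∃ p, dist p z = 1 ∧ ∀ᶠ q in 𝓝[sphere z 1] p, T q = P}

/-- near every point `y` of `S(z)` with `T y ⊆ T z` there are points in arcs with palette in `M z` -/
theorem Irr.exists_MM (h : Irr U T) {z y : ℂ} (h4 : (T z).ncard ≤ 4) (hy : dist y z = 1)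
    (hyz : T y ⊆ T z) : ∃ P ∈ MM T z, P ⊆ T y := by
  obtain ⟨q, -, hq, hq2, hq3, hq4, hq5⟩ := h.arc_of_sub hy hyz univ_mem
  have h1 := Set.ncard_sdiff (hq3.trans hyz) (Set.toFinite _)
  refine ⟨T q, ⟨hq3.trans hyz, by omega, q, hq, hq2⟩, hq3⟩

/-- a palette of two colours inside `T z` is in `M z` -/
theorem Irr.mem_MM (h : Irr U T) {z y : ℂ} (h4 : (T z).ncard ≤ 4) (hy : dist y z = 1)
    (hyz : T y ⊆ T z) (h2 : (T y).ncard ≤ 2) : T y ∈ MM T z := by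
  obtain ⟨P, hP, hPy⟩ := h.exists_MM h4 hy hyz
  have : P = T y := Set.eq_of_subset_of_ncard_le hPy (by rw [hP.2.1]; exact h2) (Set.toFinite _)
  rwa [← this]

/-- **Assembly.** One pair in `M z`: the point is harmless. -/
theorem Irr.harm_of_MM (h : Irr U T) {z : ℂ} (h4 : (T z).ncard = 4)
    (hne : ∃ y, dist y z = 1 ∧ T y ⊆ T z)
    (huniq : ∀ P ∈ MM T z, ∀ Q ∈ MM T z, P = Q) : ∃ A, Harm T z A := by
  obtain ⟨y, hy, hyz⟩ := hne
  obtain ⟨P, ⟨hP1, hP2, p, hp, hJ⟩, -⟩ := h.exists_MM h4.le hy hyz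
  refine ⟨P, Harm.of_M h h4 hp hJ hP1 fun q Q hq hQ hQz => ?_⟩
  have hTq : T q = Q := hQ.self_of_nhdsWithin hq
  have hle : (T q).ncard ≤ 2 := by
    obtain ⟨i, hi⟩ := h.ne q
    have hzX : z ∈ XX U := h.mem_XX (by rw [dist_comm]; exact hq) (hQz (hTq ▸ hi)) (h.sub q hi)
    have h5 := h.gap_two hzX hq (P := Q) (hQ.mono fun q' hq' => by rw [← hq']; exact h.sub q')
    have h6 := Set.ncard_sdiff hQz (Set.toFinite _)
    have h7 := Set.ncard_le_ncard hQz (Set.toFinite _)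
    rw [hTq]
    omega
  have := h.mem_MM h4.le hq (by rw [hTq]; exact hQz) hle
  rw [hTq] at this
  exact huniq Q this P ⟨hP1, hP2, p, hp, hJ⟩

/-- two different pairs inside a set of four colours: one common colour, or complementary -/
theorem two_pairs {s P Q : Set (Fin k)} (hs : s.ncard = 4) (hP : P.ncard = 2) (hQ : Q.ncard = 2)
    (hPs : P ⊆ s) (hQs : Q ⊆ s) (hne : P ≠ Q) :
    ∃ a b c d : Fin k, a ≠ b ∧ a ≠ c ∧ a ≠ d ∧ b ≠ c ∧ b ≠ d ∧ c ≠ d ∧ s = {a, b, c, d} ∧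
      ((P = {a, b} ∧ Q = {a, c}) ∨ (P = {a, b} ∧ Q = {c, d})) := by
  classical
  obtain ⟨p, q, hpq, rfl⟩ := Set.ncard_eq_two.1 hP
  obtain ⟨r, t, hrt, rfl⟩ := Set.ncard_eq_two.1 hQ
  have hp : p ∈ s := hPs (by simp)
  have hq : q ∈ s := hPs (by simp)
  have hr : r ∈ s := hQs (by simp)
  have ht : t ∈ s := hQs (by simp)
  -- three common colours plus a fourth one
  have fourth : ∀ x y w : Fin k, x ∈ s → y ∈ s → w ∈ s → x ≠ y → x ≠ w → y ≠ w →
      ∃ v, v ≠ x ∧ v ≠ y ∧ v ≠ w ∧ s = {x, y, w, v} := by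
    intro x y w hx hy hw h1 h2 h3
    have h4 : ({x, y, w} : Set (Fin k)).ncard = 3 := Set.ncard_eq_three.2 ⟨x, y, w, h1, h2, h3, rfl⟩
    have h5 : ({x, y, w} : Set (Fin k)) ⊆ s := by
      rintro i (rfl | rfl | rfl) <;> assumption
    obtain ⟨v, hv, hv'⟩ := Set.exists_mem_notMem_of_ncard_lt_ncard
      (s := ({x, y, w} : Set (Fin k))) (t := s) (by omega)
    simp only [mem_insert_iff, mem_singleton_iff, not_or] at hv'
    refine ⟨v, hv'.1, hv'.2.1, hv'.2.2, (Set.eq_of_subset_of_ncard_le ?_ ?_ (Set.toFinite _)).symm⟩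
    · rintro i (rfl | rfl | rfl | rfl) <;> assumption
    · rw [hs]
      have h6 : ({x, y, w, v} : Set (Fin k)) = insert v {x, y, w} := by
        ext i; simp only [mem_insert_iff, mem_singleton_iff]; tauto
      rw [h6, Set.ncard_insert_of_notMem (by simp [hv'.1, hv'.2.1, hv'.2.2]), h4]
  by_cases h1 : p = r
  · subst h1
    have h2 : q ≠ t := fun h => hne (by rw [h])
    obtain ⟨v, hv1, hv2, hv3, hv⟩ := fourth p q t hp hq ht hpq hrt h2
    exact ⟨p, q, t, v, hpq, hrt, hv1.symm, h2, hv2.symm, hv3.symm, hv, Or.inl ⟨rfl, rfl⟩⟩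
  by_cases h2 : p = t
  · subst h2
    have h3 : q ≠ r := fun h => hne (by rw [h, Set.pair_comm])
    obtain ⟨v, hv1, hv2, hv3, hv⟩ := fourth p q r hp hq hr hpq h1 h3
    exact ⟨p, q, r, v, hpq, h1, hv1.symm, h3, hv2.symm, hv3.symm, hv,
      Or.inl ⟨rfl, Set.pair_comm _ _⟩⟩
  by_cases h3 : q = r
  · subst h3
    obtain ⟨v, hv1, hv2, hv3, hv⟩ := fourth q p t hq hp ht hpq.symm hrt h2
    exact ⟨q, p, t, v, hpq.symm, hrt, hv1.symm, h2, hv2.symm, hv3.symm, hv,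
      Or.inl ⟨Set.pair_comm _ _, rfl⟩⟩
  by_cases h4 : q = t
  · subst h4
    obtain ⟨v, hv1, hv2, hv3, hv⟩ := fourth q p r hq hp hr hpq.symm h3 h1
    exact ⟨q, p, r, v, hpq.symm, h3, hv1.symm, h1, hv2.symm, hv3.symm, hv,
      Or.inl ⟨Set.pair_comm _ _, Set.pair_comm _ _⟩⟩
  · obtain ⟨v, hv1, hv2, hv3, hv⟩ := fourth p q r hp hq hr hpq h1 h3
    have h5 : t = v := by
      have : t ∈ s := ht
      rw [hv] at this
      rcases this with h | h | h | h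
      · exact absurd h.symm h2
      · exact absurd h.symm h4
      · exact absurd h.symm hrt
      · exact h
    subst h5
    exact ⟨p, q, r, t, hpq, h1, hv1.symm, h3, hv2.symm, hv3.symm, hv, Or.inr ⟨rfl, rfl⟩⟩

/-- **Assembly**: no crossing pairs (matching lemma and `min`), no complementary pairs (no
`D`-point), `M z ≠ ∅`. -/
theorem Irr.harm_of (h : Irr U T) {z : ℂ} (h4 : (T z).ncard = 4)
    (hne : ∃ y, dist y z = 1 ∧ T y ⊆ T z)
    (hmatch : ∀ a b c d : Fin k, a ≠ b → a ≠ c → a ≠ d → b ≠ c → b ≠ d → c ≠ d →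
      T z = {a, b, c, d} → (∃ q, dist q z = 1 ∧ ∀ᶠ x in 𝓝[sphere z 1] q, T x = {a, b}) →
      ¬ ∃ q, dist q z = 1 ∧ ∀ᶠ x in 𝓝[sphere z 1] q, T x = {a, c})
    (hD : ∀ a b c d : Fin k, a ≠ b → a ≠ c → a ≠ d → b ≠ c → b ≠ d → c ≠ d →
      T z = {a, b, c, d} → (∃ q, dist q z = 1 ∧ ∀ᶠ x in 𝓝[sphere z 1] q, T x = {a, b}) →
      ¬ ∃ q, dist q z = 1 ∧ ∀ᶠ x in 𝓝[sphere z 1] q, T x = {c, d}) :
    ∃ A, Harm T z A := by
  refine h.harm_of_MM h4 hne fun P hP Q hQ => ?_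
  by_contra hPQ
  obtain ⟨a, b, c, d, h1, h2, h3, h4', h5, h6, hs, hc⟩ :=
    two_pairs h4 hP.2.1 hQ.2.1 hP.1 hQ.1 hPQ
  rcases hc with ⟨rfl, rfl⟩ | ⟨rfl, rfl⟩
  · exact hmatch a b c d h1 h2 h3 h4' h5 h6 hs hP.2.2 hQ.2.2
  · exact hD a b c d h1 h2 h3 h4' h5 h6 hs hP.2.2 hQ.2.2

/-- the colours `s` suffice for the family `U` at `w` -/
def Suf (U : Fin k → Set ℂ) (s : Set (Fin k)) (w : ℂ) : Prop :=
  ∃ i ∈ s, w ∈ U i ∨ (w ∈ XX U ∧ i ∈ Pal U w)

/-- if near `z` the set `U d` contains the points with palette `{a}`, the colour `a` is not needed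
at `z` -/
theorem Irr.suf_of_single (h : Irr U T) {z : ℂ} {a d : Fin k} (had : a ≠ d) (hd : d ∈ T z)
    (hw : ∀ᶠ w in 𝓝 z, T w = {a} → w ∈ U d) : ∀ᶠ w in 𝓝 z, Suf U (T z \ {a}) w := by
  filter_upwards [h.nhd z, hw] with w hwz hwa
  by_cases hT : ∃ i ∈ T w, i ≠ a
  · obtain ⟨i, hi, hia⟩ := hT
    refine ⟨i, ⟨hwz hi, hia⟩, ?_⟩
    by_cases hX : w ∈ XX U
    · exact Or.inr ⟨hX, h.sub w hi⟩
    · exact Or.inl (h.off w hX i hi)
  · push Not at hT
    refine ⟨d, ⟨hd, fun hcon => had hcon.symm⟩, Or.inl (hwa ?_)⟩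
    obtain ⟨i, hi⟩ := h.ne w
    ext m
    refine ⟨fun hm => hT m hm, fun hm => ?_⟩
    have hm' : m = a := hm
    rw [hm', ← hT i hi]
    exact hi

/-- the matching lemma in the form of `harm_of` -/
theorem Irr.match_of (h : Irr U T) {z : ℂ}
    (hmin : ∀ s, s ⊆ T z → s ≠ T z → ¬ ∀ᶠ w in 𝓝 z, Suf U s w)
    {a b c d : Fin k} (had : a ≠ d) (hs : T z = {a, b, c, d})
    (hw : ∀ᶠ w in 𝓝 z, T w = {a} → w ∈ U d) : False := by
  refine hmin (T z \ {a}) sdiff_subset (fun hcon => ?_) (h.suf_of_single had (by rw [hs]; simp) hw)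
  have : a ∈ T z \ {a} := by rw [hcon, hs]; simp
  exact this.2 rfl

end Vale.Agent.P032.Six
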