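import Vale.Agent.P032.S5.H287.Final1
import Vale.Agent.P032.S5.H12.Inst
import Vale.Agent.P032.S5.H496.Start

/-!
# P032: the order four theorem for irredundant covers without unit pairs

In the frame `Irr U T` with `min` (Suf form) there are points with at least five colours or two
points at distance one with at least four colours.
-/

open Set Filter Topology Metric

noncomputable section

namespace Vale.Agent.P032.Six

variable {U : Fin 6 → Set ℂ} {T : ℂ → Set (Fin 6)}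

/-- no `D`-points if there are at most four colours everywhere and no unit pairs -/
theorem Irr.no_DPt (h : Irr U T)
    (hmin : ∀ z, 4 ≤ (T z).ncard → ∀ s, s ⊆ T z → s ≠ T z →
      ¬ ∀ᶠ w in 𝓝 z, ∃ i ∈ s, w ∈ U i ∨ (w ∈ XX U ∧ i ∈ Pal U w))
    (h4 : ∀ z, (T z).ncard ≤ 4)
    (hu : ∀ z z', 4 ≤ (T z).ncard → 4 ≤ (T z').ncard → dist z z' ≠ 1)
    (z : ℂ) (a b c d : Fin 6) : ¬ DPt T z a b c d := by
  intro hz
  obtain ⟨v, q, hv, hq, hvq⟩ := hz.start_of h hmin h4 hu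
  exact EE.no_compl h h4 (fun z y hz hy => hu z y hz.ge hy.ge) hv hq hvq

/-- **Order four theorem, global form.** -/
theorem Irr.no4 (h : Irr U T)
    (hmin : ∀ z, 4 ≤ (T z).ncard → ∀ s, s ⊆ T z → s ≠ T z →
      ¬ ∀ᶠ w in 𝓝 z, ∃ i ∈ s, w ∈ U i ∨ (w ∈ XX U ∧ i ∈ Pal U w))
    (h4 : ∀ z, (T z).ncard ≤ 4)
    (hu : ∀ z z', 4 ≤ (T z).ncard → 4 ≤ (T z').ncard → dist z z' ≠ 1) : False :=
  h.no4_noD hmin h4 hu (h.no_DPt hmin h4 hu)

/-- **Clean theorem**: only the clean points with five and six colours are left. -/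
theorem Irr.clean (h : Irr U T)
    (hmin : ∀ z, 4 ≤ (T z).ncard → ∀ s, s ⊆ T z → s ≠ T z →
      ¬ ∀ᶠ w in 𝓝 z, ∃ i ∈ s, w ∈ U i ∨ (w ∈ XX U ∧ i ∈ Pal U w))
    (hu : ∀ z z', 4 ≤ (T z).ncard → 4 ≤ (T z').ncard → dist z z' ≠ 1)
    (hno5 : ∀ z, (T z).ncard = 5 → (∀ y, dist y z = 1 → (T y).ncard ≤ 3) → False)
    (hno6 : ∀ z, (T z).ncard = 6 → (∀ y, dist y z = 1 → (T y).ncard ≤ 3) → False) : False :=
  h.clean_noD hmin hu hno5 hno6 fun h4 => h.no_DPt hmin h4 hu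

end Vale.Agent.P032.Six
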