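import Vale.Agent.P032.S5.H287.Top
import Vale.Agent.P032.S5.H287.DPtC

/-!
# P032: the top theorems with `no DPt` as the hypothesis on `D`-points
-/

open Set Filter Topology Metric

noncomputable section

namespace Vale.Agent.P032.Six

variable {U : Fin 6 → Set ℂ} {T : ℂ → Set (Fin 6)}

theorem Irr.no4_of_DPt (h : Irr U T)
    (hmin : ∀ z, 4 ≤ (T z).ncard → ∀ s, s ⊆ T z → s ≠ T z →
      ¬ ∀ᶠ w in 𝓝 z, ∃ i ∈ s, w ∈ U i ∨ (w ∈ XX U ∧ i ∈ Pal U w))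
    (h4 : ∀ z, (T z).ncard ≤ 4)
    (hu : ∀ z z', 4 ≤ (T z).ncard → 4 ≤ (T z').ncard → dist z z' ≠ 1)
    (hD : ∀ z a b c d, ¬ DPt T z a b c d)
    (hcarr : (∀ z, dist z 0 ≤ 12 → 4 ≤ (T z).ncard → ∃ A, Harm T z A) →
      (∀ z z', dist z 0 ≤ 12 → dist z' 0 ≤ 12 → 4 ≤ (T z).ncard → 4 ≤ (T z').ncard →
        dist z z' ≠ 1) → False) : False :=
  h.no4_of hmin h4 hu (fun z p q _ hp hq hpJ hqJ hp2 hq2 hdis hun => by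
    obtain ⟨a, b, c, d, hd⟩ := exists_DPt hp hq hpJ hqJ hp2 hq2 hdis hun
    exact hD z a b c d hd) hcarr

theorem Irr.clean_of_DPt (h : Irr U T)
    (hmin : ∀ z, 4 ≤ (T z).ncard → ∀ s, s ⊆ T z → s ≠ T z →
      ¬ ∀ᶠ w in 𝓝 z, ∃ i ∈ s, w ∈ U i ∨ (w ∈ XX U ∧ i ∈ Pal U w))
    (hu : ∀ z z', 4 ≤ (T z).ncard → 4 ≤ (T z').ncard → dist z z' ≠ 1)
    (hno5 : ∀ z, (T z).ncard = 5 → (∀ y, dist y z = 1 → (T y).ncard ≤ 3) → False)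
    (hno6 : ∀ z, (T z).ncard = 6 → (∀ y, dist y z = 1 → (T y).ncard ≤ 3) → False)
    (hD : (∀ z, (T z).ncard ≤ 4) → ∀ z a b c d, ¬ DPt T z a b c d)
    (hcarr : (∀ z, dist z 0 ≤ 12 → 4 ≤ (T z).ncard → ∃ A, Harm T z A) →
      (∀ z z', dist z 0 ≤ 12 → dist z' 0 ≤ 12 → 4 ≤ (T z).ncard → 4 ≤ (T z').ncard →
        dist z z' ≠ 1) → False) : False :=
  h.clean_of hmin hu hno5 hno6 (fun h4 z p q _ hp hq hpJ hqJ hp2 hq2 hdis hun => by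
    obtain ⟨a, b, c, d, hd⟩ := exists_DPt hp hq hpJ hqJ hp2 hq2 hdis hun
    exact hD h4 z a b c d hd) hcarr

end Vale.Agent.P032.Six
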