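import Vale.Agent.P032.S5.H287.Final0
import Vale.Agent.P032.S5.H286.Carr

/-!
# P032: the order four theorem with only the hypothesis on `D`-points left
-/

open Set Filter Topology Metric

noncomputable section

namespace Vale.Agent.P032.Six

variable {U : Fin 6 → Set ℂ} {T : ℂ → Set (Fin 6)}

/-- no palettes with five colours, no unit pairs, no `D`-points: contradiction -/
theorem Irr.no4_noD (h : Irr U T)
    (hmin : ∀ z, 4 ≤ (T z).ncard → ∀ s, s ⊆ T z → s ≠ T z →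
      ¬ ∀ᶠ w in 𝓝 z, ∃ i ∈ s, w ∈ U i ∨ (w ∈ XX U ∧ i ∈ Pal U w))
    (h4 : ∀ z, (T z).ncard ≤ 4)
    (hu : ∀ z z', 4 ≤ (T z).ncard → 4 ≤ (T z').ncard → dist z z' ≠ 1)
    (hD : ∀ z a b c d, ¬ DPt T z a b c d) : False :=
  h.no4_of_DPt hmin h4 hu hD fun hH hU => Vale.Agent.P032.Carr.carr h 0 hH hU

/-- clean version: no unit pairs, no clean five- or six-coloured points, no `D`-points -/
theorem Irr.clean_noD (h : Irr U T)
    (hmin : ∀ z, 4 ≤ (T z).ncard → ∀ s, s ⊆ T z → s ≠ T z →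
      ¬ ∀ᶠ w in 𝓝 z, ∃ i ∈ s, w ∈ U i ∨ (w ∈ XX U ∧ i ∈ Pal U w))
    (hu : ∀ z z', 4 ≤ (T z).ncard → 4 ≤ (T z').ncard → dist z z' ≠ 1)
    (hno5 : ∀ z, (T z).ncard = 5 → (∀ y, dist y z = 1 → (T y).ncard ≤ 3) → False)
    (hno6 : ∀ z, (T z).ncard = 6 → (∀ y, dist y z = 1 → (T y).ncard ≤ 3) → False)
    (hD : (∀ z, (T z).ncard ≤ 4) → ∀ z a b c d, ¬ DPt T z a b c d) : False :=
  h.clean_of_DPt hmin hu hno5 hno6 hD fun hH hU => Vale.Agent.P032.Carr.carr h 0 hH hU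

end Vale.Agent.P032.Six
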