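import Vale.Agent.P032.S5.H287.HMTop
import Vale.Agent.P032.S5.H360.Degree
import Vale.Agent.P032.S5.H483.NE

/-!
# P032: top of the order four theorem (global form), with the blocks as hypotheses

Frame `Irr U T` with the Suf form of `min`.

* `Irr.harm_all` : no palettes with more than four colours, no two four-coloured points at distance
  one, no `D`-points: all four-coloured points are harmless.
* `Irr.no4_of`, `Irr.clean_of` : the contradictions from the carrier theorem (`hcarr`).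
-/

open Set Filter Topology Metric

noncomputable section

namespace Vale.Agent.P032.Six

variable {U : Fin 6 → Set ℂ} {T : ℂ → Set (Fin 6)}

/-- **Assembly** at one point `z` with four colours. -/
theorem Irr.harm_one (h : Irr U T)
    (hmin : ∀ z, 4 ≤ (T z).ncard → ∀ s, s ⊆ T z → s ≠ T z →
      ¬ ∀ᶠ w in 𝓝 z, ∃ i ∈ s, w ∈ U i ∨ (w ∈ XX U ∧ i ∈ Pal U w)) {z : ℂ}
    (hz : (T z).ncard = 4) (h3 : ∀ y, dist y z = 1 → (T y).ncard ≤ 3)
    (hD : ∀ p q, dist p z = 1 → dist q z = 1 → (∀ᶠ x in 𝓝[sphere z 1] p, T x = T p) →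
      (∀ᶠ x in 𝓝[sphere z 1] q, T x = T q) → (T p).ncard = 2 → (T q).ncard = 2 →
      Disjoint (T p) (T q) → T p ∪ T q = T z → False) : ∃ A, Harm T z A := by
  refine h.harm_of_MM hz (h.exists_sub_of_clean hz.ge h3) fun P hP Q hQ => ?_
  obtain ⟨hPz, hP2, p, hp, hpJ⟩ := hP
  obtain ⟨hQz, hQ2, q, hq, hqJ⟩ := hQ
  have hPp : T p = P := hpJ.self_of_nhdsWithin hp
  have hQq : T q = Q := hqJ.self_of_nhdsWithin hq
  by_contra hne
  rcases h.pairs_disjoint hmin hz hp hq (by rw [hPp]; exact hPz) (by rw [hQq]; exact hQz)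
    (by rw [hPp]; exact hP2) (by rw [hQq]; exact hQ2) with heq | hdis
  · exact hne (by rw [← hPp, ← hQq, heq])
  · refine hD p q hp hq (by rw [hPp]; exact hpJ) (by rw [hQq]; exact hqJ) (by rw [hPp]; exact hP2)
      (by rw [hQq]; exact hQ2) hdis ?_
    refine Set.eq_of_subset_of_ncard_le (union_subset (by rw [hPp]; exact hPz)
      (by rw [hQq]; exact hQz)) ?_ (Set.toFinite _)
    rw [Set.ncard_union_eq hdis (Set.toFinite _) (Set.toFinite _), hPp, hQq, hP2, hQ2, hz]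

/-- **All four-coloured points are harmless.** -/
theorem Irr.harm_all (h : Irr U T)
    (hmin : ∀ z, 4 ≤ (T z).ncard → ∀ s, s ⊆ T z → s ≠ T z →
      ¬ ∀ᶠ w in 𝓝 z, ∃ i ∈ s, w ∈ U i ∨ (w ∈ XX U ∧ i ∈ Pal U w))
    (h4 : ∀ z, (T z).ncard ≤ 4)
    (hu : ∀ z z', 4 ≤ (T z).ncard → 4 ≤ (T z').ncard → dist z z' ≠ 1)
    (hD : ∀ z p q, (T z).ncard = 4 → dist p z = 1 → dist q z = 1 →
      (∀ᶠ x in 𝓝[sphere z 1] p, T x = T p) → (∀ᶠ x in 𝓝[sphere z 1] q, T x = T q) →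
      (T p).ncard = 2 → (T q).ncard = 2 → Disjoint (T p) (T q) → T p ∪ T q = T z → False) :
    ∀ z, 4 ≤ (T z).ncard → ∃ A, Harm T z A := by
  intro z hz
  refine h.harm_one hmin (le_antisymm (h4 z) hz) (fun y hy => ?_)
    (fun p q => hD z p q (le_antisymm (h4 z) hz))
  by_contra hcon
  exact hu y z (by omega) hz hy

/-- **Order four theorem**, global form, from the blocks `hD` (no `D`-point) and `hcarr` (no cover
all of whose four-coloured points are harmless). -/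
theorem Irr.no4_of (h : Irr U T)
    (hmin : ∀ z, 4 ≤ (T z).ncard → ∀ s, s ⊆ T z → s ≠ T z →
      ¬ ∀ᶠ w in 𝓝 z, ∃ i ∈ s, w ∈ U i ∨ (w ∈ XX U ∧ i ∈ Pal U w))
    (h4 : ∀ z, (T z).ncard ≤ 4)
    (hu : ∀ z z', 4 ≤ (T z).ncard → 4 ≤ (T z').ncard → dist z z' ≠ 1)
    (hD : ∀ z p q, (T z).ncard = 4 → dist p z = 1 → dist q z = 1 →
      (∀ᶠ x in 𝓝[sphere z 1] p, T x = T p) → (∀ᶠ x in 𝓝[sphere z 1] q, T x = T q) →
      (T p).ncard = 2 → (T q).ncard = 2 → Disjoint (T p) (T q) → T p ∪ T q = T z → False)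
    (hcarr : (∀ z, dist z 0 ≤ 12 → 4 ≤ (T z).ncard → ∃ A, Harm T z A) →
      (∀ z z', dist z 0 ≤ 12 → dist z' 0 ≤ 12 → 4 ≤ (T z).ncard → 4 ≤ (T z').ncard →
        dist z z' ≠ 1) → False) : False :=
  hcarr (fun z _ => h.harm_all hmin h4 hu hD z) fun z z' _ _ => hu z z'

/-- **Clean theorem**: no unit pairs, no clean points with five or six colours. -/
theorem Irr.clean_of (h : Irr U T)
    (hmin : ∀ z, 4 ≤ (T z).ncard → ∀ s, s ⊆ T z → s ≠ T z →
      ¬ ∀ᶠ w in 𝓝 z, ∃ i ∈ s, w ∈ U i ∨ (w ∈ XX U ∧ i ∈ Pal U w))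
    (hu : ∀ z z', 4 ≤ (T z).ncard → 4 ≤ (T z').ncard → dist z z' ≠ 1)
    (hno5 : ∀ z, (T z).ncard = 5 → (∀ y, dist y z = 1 → (T y).ncard ≤ 3) → False)
    (hno6 : ∀ z, (T z).ncard = 6 → (∀ y, dist y z = 1 → (T y).ncard ≤ 3) → False)
    (hD : (∀ z, (T z).ncard ≤ 4) → ∀ z p q, (T z).ncard = 4 → dist p z = 1 → dist q z = 1 →
      (∀ᶠ x in 𝓝[sphere z 1] p, T x = T p) → (∀ᶠ x in 𝓝[sphere z 1] q, T x = T q) →
      (T p).ncard = 2 → (T q).ncard = 2 → Disjoint (T p) (T q) → T p ∪ T q = T z → False)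
    (hcarr : (∀ z, dist z 0 ≤ 12 → 4 ≤ (T z).ncard → ∃ A, Harm T z A) →
      (∀ z z', dist z 0 ≤ 12 → dist z' 0 ≤ 12 → 4 ≤ (T z).ncard → 4 ≤ (T z').ncard →
        dist z z' ≠ 1) → False) : False := by
  have h4 : ∀ z, (T z).ncard ≤ 4 := by
    intro z
    by_contra hcon
    have h6 : (T z).ncard ≤ 6 := by
      have := Set.ncard_le_ncard (s := T z) (t := univ) (subset_univ _) (Set.toFinite _)
      rw [Set.ncard_univ, Nat.card_eq_fintype_card, Fintype.card_fin] at this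
      exact this
    have h3 : ∀ y, dist y z = 1 → (T y).ncard ≤ 3 := by
      intro y hy
      by_contra hcon'
      exact hu y z (by omega) (by omega) hy
    rcases (by omega : (T z).ncard = 5 ∨ (T z).ncard = 6) with h5 | h5
    · exact hno5 z h5 h3
    · exact hno6 z h5 h3
  exact h.no4_of hmin h4 hu (hD h4) hcarr

end Vale.Agent.P032.Six
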